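import Vale.Agent.P256.PL.Final

open Vale.Agent.P256

/-- The projected Lax conjecture is false: there is a hyperbolic polynomial `p` (in some number
`n` of variables, with respect to `e`) whose closed hyperbolicity cone `K(p,e)` is not a
spectrahedral shadow. -/
theorem Vale.Agent.Results.P256.AProjectedLaxFails.result :
    ∃ (n : ℕ) (p : MvPolynomial (Fin n) ℝ) (e : Fin n → ℝ),
      IsHyperbolic p e ∧ ¬ IsSpectrahedralShadow (hypCone p e) :=
  PL.stmtFinal
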